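import Vale.Agent.P032.H437.Uf
import Vale.Agent.P032.S5.H360.Degree

/-!
# P032: clause family F10 (order four)

`|T w| = 4`: a limit letter of `S(w)` inside `T w` is a pair (`lt_pair_four`); two limit letters
inside `T w`, at any slots, before or after, are equal or disjoint (`lt_four`).
`M605 T w a b` : `{a, b}` is the palette of a point of `S(w)`, `a` and `b` are in `T w`, `a ≠ b`.
`M4_605` : at most one `b` for every `a` when `|T w| = 4`.
-/

open Set Filter Topology Metric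

noncomputable section

namespace Vale.Agent.P032.H605

open Vale.Agent.P032.Six Vale.Agent.P032.Sweep Vale.Agent.P032.S5.H767 Vale.Agent.P032.S5.H122
  Vale.Agent.P032.H158 Vale.Agent.P032.H782 Vale.Agent.P032.H437

variable {U : Fin 6 → Set ℂ} {T : ℂ → Set (Fin 6)} {F F' : Ultrafilter ℝ} {w : ℂ} {k k' : ℝ}

/-- a limit letter is the palette of a point of the circle -/
theorem exists_pt (F : Ultrafilter ℝ) (T : ℂ → Set (Fin 6)) (w : ℂ) (k : ℝ) :
    ∃ q, dist q w = 1 ∧ T q = lt F T w k := by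
  obtain ⟨v, hv⟩ := (lt_spec F T w k).exists
  exact ⟨pt w (v + k), dist_pt w _, hv⟩

/-- order four: a limit letter inside `T w` is a pair -/
theorem lt_pair_four (h : Irr U T) (h4 : (T w).ncard = 4) (hs : LcF F T w k)
    (hsub : lt F T w k ⊆ T w) : (lt F T w k).ncard = 2 := by
  have h1 := lt_two_out h hs hsub
  have h2 := Set.ncard_sdiff hsub (Set.toFinite _)
  omega

/-- **F10**: order four, two limit letters inside `T w` are equal or disjoint -/
theorem lt_four (h : Irr U T)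
    (hmin : ∀ z, 4 ≤ (T z).ncard → ∀ s, s ⊆ T z → s ≠ T z →
      ¬ ∀ᶠ w in 𝓝 z, ∃ i ∈ s, w ∈ U i ∨ (w ∈ XX U ∧ i ∈ Pal U w))
    (h4 : (T w).ncard = 4) (hs : LcF F T w k) (hs' : LcF F' T w k') (hsub : lt F T w k ⊆ T w)
    (hsub' : lt F' T w k' ⊆ T w) :
    lt F T w k = lt F' T w k' ∨ Disjoint (lt F T w k) (lt F' T w k') := by
  obtain ⟨q, h1, h2⟩ := exists_pt F T w k
  obtain ⟨q', h1', h2'⟩ := exists_pt F' T w k'
  have h3 := lt_pair_four h h4 hs hsub
  have h3' := lt_pair_four h h4 hs' hsub'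
  rw [← h2] at hsub h3 ⊢
  rw [← h2'] at hsub' h3' ⊢
  exact h.pairs_disjoint hmin h4 h1 h1' hsub hsub' h3 h3'

/-- `{a, b}` is a palette of the circle about `w` inside `T w` -/
def M605 (T : ℂ → Set (Fin 6)) (w : ℂ) (a b : Fin 6) : Prop :=
  a ≠ b ∧ a ∈ T w ∧ b ∈ T w ∧ ∃ q, dist q w = 1 ∧ T q = {a, b}

theorem M605.symm {a b : Fin 6} (hM : M605 T w a b) : M605 T w b a := by
  obtain ⟨h1, h2, h3, q, h4, h5⟩ := hM
  exact ⟨h1.symm, h3, h2, q, h4, by rw [h5, Set.pair_comm]⟩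

/-- a letter of two colours of `T w` -/
theorem M605_of {a b : Fin 6} (hab : a ≠ b) (ha : a ∈ T w) (hb : b ∈ T w)
    (hl : lt F T w k = {a, b}) : M605 T w a b := by
  obtain ⟨q, h1, h2⟩ := exists_pt F T w k
  exact ⟨hab, ha, hb, q, h1, h2.trans hl⟩

/-- **M4**: order four, degree one -/
theorem M4_605 (h : Irr U T)
    (hmin : ∀ z, 4 ≤ (T z).ncard → ∀ s, s ⊆ T z → s ≠ T z →
      ¬ ∀ᶠ w in 𝓝 z, ∃ i ∈ s, w ∈ U i ∨ (w ∈ XX U ∧ i ∈ Pal U w))
    (h4 : (T w).ncard = 4) {i a b : Fin 6} (ha : M605 T w i a) (hb : M605 T w i b) : a = b := by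
  obtain ⟨h1, h2, h3, q, h5, h6⟩ := ha
  obtain ⟨h1', -, h3', q', h5', h6'⟩ := hb
  have hs : T q ⊆ T w := by rw [h6]; rintro x (rfl | rfl) <;> assumption
  have hs' : T q' ⊆ T w := by rw [h6']; rintro x (rfl | rfl) <;> assumption
  have hc : (T q).ncard = 2 := by rw [h6]; exact Set.ncard_pair h1
  have hc' : (T q').ncard = 2 := by rw [h6']; exact Set.ncard_pair h1'
  rcases h.pairs_disjoint hmin h4 h5 h5' hs hs' hc hc' with h7 | h7
  · rw [h6, h6'] at h7
    have h8 : a ∈ ({i, b} : Set (Fin 6)) := by rw [← h7]; simp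
    rcases h8 with h8 | h8
    · exact absurd h8.symm h1
    · exact h8
  · rw [h6, h6'] at h7
    exact absurd (Set.disjoint_left.1 h7 (mem_insert i _)) (by simp)

/-- the clause M4 of the rule list: at most four colours at `w`, degree at most one -/
theorem M4_le605 (h : Irr U T)
    (hmin : ∀ z, 4 ≤ (T z).ncard → ∀ s, s ⊆ T z → s ≠ T z →
      ¬ ∀ᶠ w in 𝓝 z, ∃ i ∈ s, w ∈ U i ∨ (w ∈ XX U ∧ i ∈ Pal U w))
    (h4 : (T w).ncard ≤ 4) {i a b : Fin 6} (ha : M605 T w i a) (hb : M605 T w i b) : a = b := by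
  rcases h4.eq_or_lt with h5 | h5
  · exact M4_605 h hmin h5 ha hb
  · obtain ⟨-, h2, h3, q, h6, h7⟩ := ha
    refine absurd ?_ (h.not_sub h6 (by omega : (T w).ncard ≤ 3))
    rw [h7]
    rintro x (rfl | rfl) <;> assumption

end Vale.Agent.P032.H605
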